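import Vale.Agent.P216.H494.CritLoop

/-!
# P216: separation of the circles of closed geodesics, periods (rows RA, RB of `H949/Spec.lean`)
-/

set_option linter.all false

open Set Topology Filter

namespace Vale.Agent.P216.R2.H642

open Vale.Agent.P216.L250 Vale.Agent.P216.H494

/-- the circle of a loop is a continuous curve -/
theorem continuous_rot {M : Type} [MetricSpace M] (g : LM M) :
    Continuous fun θ : ℝ => rot θ g := by
  let F : C(ℝ × AddCircle (1 : ℝ), M) :=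
    ⟨fun p => g (p.2 + ((p.1 : ℝ) : AddCircle (1 : ℝ))), by
      have h1 : Continuous fun p : ℝ × AddCircle (1 : ℝ) => ((p.1 : ℝ) : AddCircle (1 : ℝ)) :=
        (AddCircle.continuous_mk' (1 : ℝ)).comp continuous_fst
      exact g.continuous.comp (continuous_snd.add h1)⟩
  exact (ContinuousMap.curry F).continuous

theorem rot_int {M : Type} [MetricSpace M] (g : LM M) (n : ℤ) : rot n g = g :=
  ext_fn fun t => by
    rw [fn_rot]
    have := (fn_periodic g).int_mul n t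
    rwa [mul_one] at this

theorem rot_fract {M : Type} [MetricSpace M] (g : LM M) (x : ℝ) :
    rot (Int.fract x) g = rot x g := by
  have h : rot x g = rot (Int.fract x) (rot (⌊x⌋ : ℝ) g) := by
    rw [rot_rot, Int.fract_add_floor]
  rw [h, rot_int]

theorem dist_rot_rot {M : Type} [MetricSpace M] (g z : LM M) (s θ : ℝ) :
    dist (rot s z) (rot θ g) = dist z (rot (θ - s) g) := by
  have h := (isometry_rot (M := M) s).dist_eq z (rot (θ - s) g)
  rw [rot_rot, add_sub_cancel] at h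
  exact h

/-- distance from a loop to a circle -/
theorem exists_gap {M : Type} [MetricSpace M] (g z : LM M) :
    ∃ ε > 0, ∀ θ : ℝ, dist z (rot θ g) < ε → ∃ θ', z = rot θ' g := by
  by_cases hz : ∃ θ', z = rot θ' g
  · exact ⟨1, one_pos, fun _ _ => hz⟩
  push Not at hz
  obtain ⟨θ₀, -, h0⟩ := isCompact_Icc.exists_isMinOn (nonempty_Icc.2 (zero_le_one (α := ℝ)))
    (f := fun θ : ℝ => dist z (rot θ g)) (continuous_const.dist (continuous_rot g)).continuousOn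
  refine ⟨dist z (rot θ₀ g), dist_pos.2 (hz θ₀), fun θ hθ => ?_⟩
  exfalso
  have h1 : dist z (rot θ₀ g) ≤ dist z (rot (Int.fract θ) g) :=
    isMinOn_iff.1 h0 _ ⟨Int.fract_nonneg θ, (Int.fract_lt_one θ).le⟩
  rw [rot_fract] at h1
  exact absurd hθ (not_lt.2 h1)

/-- two loops of `S(j, e)` differ by a rotation -/
theorem same_circle {M : Type} [MetricSpace M] {G : GeoList M} {e a : ℝ}
    (he : e = 1 ∨ e = -1) (ha : 0 < a) {j : G.ι} {z z' : LM M}
    (hz : ∃ b : ℝ, ∀ t, fn z t = G.c j (e * a * t + b))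
    (hz' : ∃ b : ℝ, ∀ t, fn z' t = G.c j (e * a * t + b)) : ∃ s, z' = rot s z := by
  obtain ⟨b, h⟩ := hz
  obtain ⟨b', h'⟩ := hz'
  have hea : e * a ≠ 0 := by
    rcases he with rfl | rfl
    · simpa using ha.ne'
    · simpa using ha.ne'
  refine ⟨(b' - b) / (e * a), ext_fn fun t => ?_⟩
  rw [fn_rot, h, h', mul_add, mul_div_cancel₀ _ hea]
  congr 1
  ring

theorem exists_gap_KK {M : Type} [MetricSpace M] (G : GeoList M) {e a : ℝ}
    (he : e = 1 ∨ e = -1) (ha : 0 < a) (g : LM M) :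
    ∃ ε > 0, ∀ z ∈ G.KK e a, ∀ θ : ℝ, dist z (rot θ g) < ε → ∃ θ', z = rot θ' g := by
  haveI := G.fin
  have h1 : ∀ j : G.ι, ∃ ε > 0, ∀ z : LM M, (∃ b : ℝ, ∀ t, fn z t = G.c j (e * a * t + b)) →
      ∀ θ : ℝ, dist z (rot θ g) < ε → ∃ θ', z = rot θ' g := by
    intro j
    by_cases hS : ∃ z₀ : LM M, ∃ b : ℝ, ∀ t, fn z₀ t = G.c j (e * a * t + b)
    · obtain ⟨z₀, hz₀⟩ := hS
      obtain ⟨ε, hε, H⟩ := exists_gap g z₀
      refine ⟨ε, hε, fun z hz θ hθ => ?_⟩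
      obtain ⟨s, rfl⟩ := same_circle he ha hz₀ hz
      rw [dist_rot_rot] at hθ
      obtain ⟨θ', h⟩ := H _ hθ
      exact ⟨s + θ', by rw [h, rot_rot]⟩
    · exact ⟨1, one_pos, fun z hz => (hS ⟨z, hz⟩).elim⟩
  choose ε hε H using h1
  cases isEmpty_or_nonempty G.ι with
  | inl hE => exact ⟨1, one_pos, fun z ⟨j, _⟩ => (hE.false j).elim⟩
  | inr hN =>
    obtain ⟨j₀, hj₀⟩ := Finite.exists_min ε
    exact ⟨ε j₀, hε j₀, fun z ⟨j, hz⟩ θ hθ => H j z hz θ (hθ.trans_le (hj₀ j))⟩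

/-- **RA**, with `Geo1 G a` unfolded -/
theorem rA' (M : Type) [MetricSpace M] (G : GeoList M) (a : ℝ) (ha : 0 < a) (g : LM M) :
    ∃ ε > 0, ∀ z ∈ G.KK 1 a ∪ G.KK (-1) a, ∀ θ : ℝ, dist z (rot θ g) < ε →
      ∃ θ', z = rot θ' g := by
  obtain ⟨ε, hε, H⟩ := exists_gap_KK G (Or.inl rfl) ha g
  obtain ⟨ε', hε', H'⟩ := exists_gap_KK G (Or.inr rfl) ha g
  refine ⟨min ε ε', lt_min hε hε', fun z hz θ hθ => ?_⟩
  rcases hz with hz | hz
  · exact H z hz θ (hθ.trans_le (min_le_left _ _))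
  · exact H' z hz θ (hθ.trans_le (min_le_right _ _))

/-- **RB** -/
theorem rB' (M : Type) [MetricSpace M] (g : LM M) (η : ℝ) (hη : 0 < η) : ∃ ε > 0, ∀ u v : ℝ,
    dist (rot u g) (rot v g) < ε → ∃ w, rot w g = rot v g ∧ |u - w| < η := by
  have hK : IsCompact {x : ℝ | x ∈ Icc (0 : ℝ) 1 ∧ ∀ p : ℝ, rot p g = g → η ≤ |x - p|} := by
    refine isCompact_Icc.of_isClosed_subset ?_ fun x hx => hx.1
    have : {x : ℝ | x ∈ Icc (0 : ℝ) 1 ∧ ∀ p : ℝ, rot p g = g → η ≤ |x - p|} =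
        Icc (0 : ℝ) 1 ∩ ⋂ (p : ℝ) (_ : rot p g = g), {x : ℝ | η ≤ |x - p|} := by
      ext x
      simp
    rw [this]
    refine isClosed_Icc.inter (isClosed_iInter fun p => isClosed_iInter fun _ => ?_)
    exact isClosed_le continuous_const (by fun_prop)
  obtain ⟨ε, hε, H⟩ : ∃ ε > 0, ∀ x ∈ {x : ℝ | x ∈ Icc (0 : ℝ) 1 ∧
      ∀ p : ℝ, rot p g = g → η ≤ |x - p|}, ε ≤ dist g (rot x g) := by
    rcases eq_empty_or_nonempty {x : ℝ | x ∈ Icc (0 : ℝ) 1 ∧
      ∀ p : ℝ, rot p g = g → η ≤ |x - p|} with hE | hN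
    · exact ⟨1, one_pos, fun x hx => by rw [hE] at hx; exact hx.elim⟩
    · obtain ⟨x₀, hx₀, h0⟩ := hK.exists_isMinOn hN
        (f := fun θ : ℝ => dist g (rot θ g)) (continuous_const.dist (continuous_rot g)).continuousOn
      refine ⟨dist g (rot x₀ g), dist_pos.2 fun he => ?_, fun x hx => isMinOn_iff.1 h0 x hx⟩
      have := hx₀.2 x₀ he.symm
      rw [sub_self, abs_zero] at this
      exact absurd hη (not_lt.2 this)
  refine ⟨ε, hε, fun u v huv => ?_⟩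
  rw [dist_rot_rot, ← rot_fract] at huv
  have hx : ¬ (Int.fract (v - u) ∈ {x : ℝ | x ∈ Icc (0 : ℝ) 1 ∧
      ∀ p : ℝ, rot p g = g → η ≤ |x - p|}) := fun h => absurd huv (not_lt.2 (H _ h))
  have hx2 : ∃ p : ℝ, rot p g = g ∧ |Int.fract (v - u) - p| < η := by
    by_contra hcon
    push Not at hcon
    exact hx ⟨⟨Int.fract_nonneg _, (Int.fract_lt_one _).le⟩, hcon⟩
  obtain ⟨p, hp, hpη⟩ := hx2
  refine ⟨v - ⌊v - u⌋ - p, ?_, ?_⟩
  · have h2 : rot (-p) g = g := by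
      conv_lhs => rw [← hp, rot_rot]
      rw [neg_add_cancel, rot_zero]
    have h3 : rot (-(⌊v - u⌋ : ℝ)) g = g := by
      have := rot_int g (-⌊v - u⌋)
      rwa [Int.cast_neg] at this
    have : v - (⌊v - u⌋ : ℝ) - p = v + (-(⌊v - u⌋ : ℝ) + -p) := by ring
    rw [this, ← rot_rot, ← rot_rot, h2, h3]
  · have : u - (v - (⌊v - u⌋ : ℝ) - p) = -(Int.fract (v - u) - p) := by
      rw [Int.fract]; ring
    rw [this, abs_neg]
    exact hpη

end Vale.Agent.P216.R2.H642
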